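import Vale.Agent.P134.Forms

/-! P100: no bounded superharmonic function whose level sets are translates of one another. -/

open Set Filter Topology InnerProductSpace
open scoped RealInnerProductSpace Laplacian

namespace Vale.Agent.P100.H75

open Vale.Agent.P134

variable {E : Type*} [NormedAddCommGroup E] [InnerProductSpace ℝ E] [FiniteDimensional ℝ E]

/-- a bounded function on the line cannot have a positive nonincreasing derivative -/
theorem no_concave (F F' : ℝ → ℝ) (C : ℝ) (h1 : ∀ t, HasDerivAt F (F' t) t)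
    (h2 : Antitone F') (hpos : ∀ t, 0 < F' t) (hb : ∀ t, |F t| ≤ C) : False := by
  have ha := hpos 0
  have hC : 0 ≤ C := (abs_nonneg _).trans (hb 0)
  set T : ℝ := (2 * C + 1) / F' 0 with hT
  have hT0 : 0 < T := by positivity
  have hTa : F' 0 * T = 2 * C + 1 := by rw [hT]; field_simp
  have hcont : Continuous F := continuous_iff_continuousAt.2 fun t => (h1 t).continuousAt
  obtain ⟨c, hc, he⟩ := exists_hasDerivAt_eq_slope F F' (neg_lt_zero.2 hT0)
    hcont.continuousOn (fun x _ => h1 x)
  have h3 : F' 0 ≤ F' c := h2 hc.2.le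
  rw [he, zero_sub, neg_neg, le_div_iff₀ hT0, hTa] at h3
  have := abs_le.1 (hb (-T))
  have := abs_le.1 (hb 0)
  linarith

theorem core {u : E → ℝ} {e : E} (hu : ContDiff ℝ 2 u) (hpos : ∀ x, 0 < fderiv ℝ u x e)
    (hinv : ∀ x (s : ℝ), V u e (x + s • e) = V u e x) {f : ℝ → ℝ}
    (hf : ∀ x, Δ u x = f (u x)) {C : ℝ} (hb : ∀ x, |u x| ≤ C) (hneg : ∀ x, Δ u x ≤ 0) :
    False := by
  have hconst : V u e = fun _ => V u e 0 :=
    funext fun x => V_const hu hpos hinv hf hb x 0
  have hd : ∀ x, fderiv ℝ (V u e) x = 0 := by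
    intro x
    rw [hconst]
    simp
  have hV0 : V u e 0 ≠ 0 := by
    intro h
    have h1 := inner_V u e 0 e
    rw [h, inner_zero_left, inv_mul_cancel₀ (hpos 0).ne'] at h1
    norm_num at h1
  have hN : 0 < ‖V u e 0‖ ^ 2 := by
    have := norm_pos_iff.2 hV0
    positivity
  have hee : ∀ x, fderiv ℝ (fderiv ℝ u) x e e ≤ 0 := by
    intro x
    have h1 := lap hu hpos hinv x
    rw [hd x] at h1
    simp only [zero_apply, inner_zero_left, Finset.sum_const_zero, mul_zero,
      zero_add] at h1
    have h2 : V u e x = V u e 0 := congrFun hconst x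
    rw [h2] at h1
    have h3 := hneg x
    rw [h1] at h3
    by_contra h4
    push Not at h4
    have := mul_pos h4 hN
    linarith
  refine no_concave (fun t => u ((0 : E) + t • e)) (fun t => fderiv ℝ u ((0 : E) + t • e) e) C
    (fun t => prof hu 0 t) ?_ (fun t => hpos _) (fun t => hb _)
  exact antitone_of_deriv_nonpos (fun t => (prof2 hu 0 e t).differentiableAt)
    (fun t => by rw [(prof2 hu 0 e t).deriv]; exact hee _)

end Vale.Agent.P100.H75
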